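import Mathlib

/-!
Kemperman's theorem on product sets in arbitrary groups: if some element of `A * B` has a unique
representation then `|A * B| ≥ |A| + |B| - 1`.  Consequence: if `S ∩ S⁻¹ = ∅` then
`|S * S \ S| ≥ |S|`.
-/

namespace Vale.Agent.Lib.P038

open Finset
open scoped Pointwise

variable {G : Type*} [Group G] [DecidableEq G]

/-- Kemperman's theorem, in a form suited to a double strong induction. -/
theorem kemperman_aux :
    ∀ (n₁ n₂ : ℕ) (A B : Finset G) (a₀ b₀ : G), a₀ ∈ A → b₀ ∈ B →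
      (∀ a ∈ A, ∀ b ∈ B, a * b = a₀ * b₀ → a = a₀ ∧ b = b₀) →
      2 * (A * B).card - A.card - B.card = n₁ → A.card = n₂ →
      A.card + B.card ≤ (A * B).card + 1 := by
  intro n₁
  induction n₁ using Nat.strong_induction_on with
  | _ n₁ ih₁ =>
  intro n₂
  induction n₂ using Nat.strong_induction_on with
  | _ n₂ ih₂ =>
  intro A B a₀ b₀ ha₀ hb₀ huniq hn₁ hn₂
  have hAne : A.Nonempty := ⟨a₀, ha₀⟩
  have hBne : B.Nonempty := ⟨b₀, hb₀⟩
  have hAle : A.card ≤ (A * B).card := card_le_card_mul_right hBne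
  have hBle : B.card ≤ (A * B).card := card_le_card_mul_left hAne
  by_cases hcase : ∀ a ∈ A, ∀ b ∈ B, a * b₀ = a₀ * b → a = a₀
  · -- the two translates `A b₀` and `a₀ B` meet only in `a₀ b₀`
    have hX : (A.image (fun a => a * b₀)).card = A.card :=
      card_image_of_injective _ (mul_left_injective b₀)
    have hY : (B.image (fun b => a₀ * b)).card = B.card :=
      card_image_of_injective _ (mul_right_injective a₀)
    have hsub : A.image (fun a => a * b₀) ∪ B.image (fun b => a₀ * b) ⊆ A * B := by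
      intro z hz
      rcases mem_union.mp hz with hz | hz
      · obtain ⟨a, ha, rfl⟩ := mem_image.mp hz
        exact mul_mem_mul ha hb₀
      · obtain ⟨b, hb, rfl⟩ := mem_image.mp hz
        exact mul_mem_mul ha₀ hb
    have hint : A.image (fun a => a * b₀) ∩ B.image (fun b => a₀ * b) ⊆ {a₀ * b₀} := by
      intro z hz
      obtain ⟨hz1, hz2⟩ := mem_inter.mp hz
      obtain ⟨a, ha, rfl⟩ := mem_image.mp hz1
      obtain ⟨b, hb, hab⟩ := mem_image.mp hz2
      have := hcase a ha b hb hab.symm
      rw [this]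
      exact mem_singleton_self _
    have h1 := card_union_add_card_inter (A.image (fun a => a * b₀)) (B.image (fun b => a₀ * b))
    have h2 := card_le_card hsub
    have h3 := card_le_card hint
    rw [card_singleton] at h3
    omega
  · -- there is a second common point; perform the two e-transforms
    simp only [not_forall] at hcase
    obtain ⟨a₁, ha₁, b₁, hb₁, hab, hne⟩ := hcase
    set g : G := a₀⁻¹ * a₁ with hg
    have ha₁g : a₁ = a₀ * g := by rw [hg, mul_inv_cancel_left]
    have hb₁g : b₁ = g * b₀ := by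
      rw [hg, mul_assoc, hab, inv_mul_cancel_left]
    have hg1 : g ≠ 1 := by
      intro h
      apply hne
      rw [ha₁g, h, mul_one]
    -- F1 and F2
    have F1 : a₀ * g⁻¹ ∉ A := by
      intro h
      have := (huniq (a₀ * g⁻¹) h b₁ hb₁ (by rw [hb₁g]; group)).1
      apply hg1
      have h2 : g⁻¹ = 1 := by
        have := mul_left_cancel (a := a₀) (b := g⁻¹) (c := 1) (by rw [this, mul_one])
        exact this
      exact inv_eq_one.mp h2
    have F2 : g⁻¹ * b₀ ∉ B := by
      intro h
      have := (huniq a₁ ha₁ (g⁻¹ * b₀) h (by rw [ha₁g]; group)).1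
      exact hne this
    -- the transformed pairs
    set A₁ : Finset G := A.filter (fun a => a * g⁻¹ ∈ A) with hA₁
    set B₁ : Finset G := B ∪ B.image (fun b => g⁻¹ * b) with hB₁
    set A₂ : Finset G := A ∪ A.image (fun a => a * g) with hA₂
    set B₂ : Finset G := B.filter (fun b => g * b ∈ B) with hB₂
    have hA₁eq : A₁ = A ∩ A.image (fun a => a * g) := by
      ext a
      simp only [hA₁, mem_filter, mem_inter, mem_image]
      constructor
      · rintro ⟨h1, h2⟩
        exact ⟨h1, a * g⁻¹, h2, by group⟩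
      · rintro ⟨h1, a', h2, rfl⟩
        exact ⟨h1, by simpa using h2⟩
    have hB₂eq : B₂ = B ∩ B.image (fun b => g⁻¹ * b) := by
      ext b
      simp only [hB₂, mem_filter, mem_inter, mem_image]
      constructor
      · rintro ⟨h1, h2⟩
        exact ⟨h1, g * b, h2, by group⟩
      · rintro ⟨h1, b', h2, rfl⟩
        exact ⟨h1, by simpa using h2⟩
    have hAg : (A.image (fun a => a * g)).card = A.card :=
      card_image_of_injective _ (mul_left_injective g)
    have hBg : (B.image (fun b => g⁻¹ * b)).card = B.card :=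
      card_image_of_injective _ (mul_right_injective g⁻¹)
    have hAcard : A₂.card + A₁.card = 2 * A.card := by
      rw [hA₁eq, hA₂, card_union_add_card_inter, hAg]; omega
    have hBcard : B₁.card + B₂.card = 2 * B.card := by
      rw [hB₂eq, hB₁, card_union_add_card_inter, hBg]; omega
    have hP1 : A₁ * B₁ ⊆ A * B := by
      intro z hz
      obtain ⟨a, ha, b, hb, rfl⟩ := mem_mul.mp hz
      rw [hA₁, mem_filter] at ha
      rcases mem_union.mp hb with hb | hb
      · exact mul_mem_mul ha.1 hb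
      · obtain ⟨b', hb', rfl⟩ := mem_image.mp hb
        have : a * (g⁻¹ * b') = (a * g⁻¹) * b' := by group
        rw [this]
        exact mul_mem_mul ha.2 hb'
    have hP2 : A₂ * B₂ ⊆ A * B := by
      intro z hz
      obtain ⟨a, ha, b, hb, rfl⟩ := mem_mul.mp hz
      rw [hB₂, mem_filter] at hb
      rcases mem_union.mp ha with ha | ha
      · exact mul_mem_mul ha hb.1
      · obtain ⟨a', ha', rfl⟩ := mem_image.mp ha
        have : a' * g * b = a' * (g * b) := by group
        rw [this]
        exact mul_mem_mul ha' hb.2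
    have hc1 := card_le_card hP1
    have hc2 := card_le_card hP2
    -- membership of the distinguished points
    have ha₁A₁ : a₁ ∈ A₁ := by
      rw [hA₁, mem_filter]
      refine ⟨ha₁, ?_⟩
      rw [ha₁g, mul_inv_cancel_right]
      exact ha₀
    have hgb₀ : g⁻¹ * b₀ ∈ B₁ := by
      rw [hB₁]
      exact mem_union_right _ (mem_image_of_mem _ hb₀)
    have ha₀A₂ : a₀ ∈ A₂ := by
      rw [hA₂]; exact mem_union_left _ ha₀
    have hb₀B₂ : b₀ ∈ B₂ := by
      rw [hB₂, mem_filter]
      exact ⟨hb₀, by rw [← hb₁g]; exact hb₁⟩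
    -- uniqueness in the first pair
    have hu1 : ∀ a ∈ A₁, ∀ b ∈ B₁, a * b = a₁ * (g⁻¹ * b₀) → a = a₁ ∧ b = g⁻¹ * b₀ := by
      intro a ha b hb hab'
      have hprod : a₁ * (g⁻¹ * b₀) = a₀ * b₀ := by rw [ha₁g]; group
      rw [hprod] at hab'
      rw [hA₁, mem_filter] at ha
      rcases mem_union.mp hb with hb | hb
      · exfalso
        obtain ⟨h1, h2⟩ := huniq a ha.1 b hb hab'
        rw [h1] at ha
        exact F1 ha.2
      · obtain ⟨b', hb', rfl⟩ := mem_image.mp hb
        have h3 : (a * g⁻¹) * b' = a₀ * b₀ := by rw [← hab']; group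
        obtain ⟨h1, h2⟩ := huniq (a * g⁻¹) ha.2 b' hb' h3
        refine ⟨?_, by rw [h2]⟩
        rw [ha₁g, ← h1]; group
    -- uniqueness in the second pair
    have hu2 : ∀ a ∈ A₂, ∀ b ∈ B₂, a * b = a₀ * b₀ → a = a₀ ∧ b = b₀ := by
      intro a ha b hb hab'
      rw [hB₂, mem_filter] at hb
      rcases mem_union.mp ha with ha | ha
      · exact huniq a ha b hb.1 hab'
      · exfalso
        obtain ⟨a', ha', rfl⟩ := mem_image.mp ha
        have h3 : a' * (g * b) = a₀ * b₀ := by rw [← hab']; group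
        obtain ⟨h1, h2⟩ := huniq a' ha' (g * b) hb.2 h3
        apply F2
        have : g⁻¹ * b₀ = b := by rw [← h2]; group
        rw [this]
        exact hb.1
    -- `A₁` is a proper subset of `A`
    have hlt : A₁.card < A.card := by
      apply card_lt_card
      rw [hA₁]
      refine ⟨filter_subset _ _, fun h => ?_⟩
      have hmap : ∀ a ∈ A, a * g⁻¹ ∈ A := fun a ha => (mem_filter.mp (h ha)).2
      exact F1 (hmap a₀ ha₀)
    have hA₁ne : A₁.Nonempty := ⟨a₁, ha₁A₁⟩
    have hB₁ne : B₁.Nonempty := ⟨_, hgb₀⟩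
    have hA₂ne : A₂.Nonempty := ⟨a₀, ha₀A₂⟩
    have hB₂ne : B₂.Nonempty := ⟨b₀, hb₀B₂⟩
    have hA₁le : A₁.card ≤ (A₁ * B₁).card := card_le_card_mul_right hB₁ne
    have hB₁le : B₁.card ≤ (A₁ * B₁).card := card_le_card_mul_left hA₁ne
    have hA₂le : A₂.card ≤ (A₂ * B₂).card := card_le_card_mul_right hB₂ne
    have hB₂le : B₂.card ≤ (A₂ * B₂).card := card_le_card_mul_left hA₂ne
    by_cases hs : A.card + B.card ≤ A₁.card + B₁.card
    · have key : A₁.card + B₁.card ≤ (A₁ * B₁).card + 1 := by
        rcases Nat.lt_or_ge (2 * (A₁ * B₁).card - A₁.card - B₁.card) n₁ with hm | hm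
        · exact ih₁ _ hm A₁.card A₁ B₁ a₁ (g⁻¹ * b₀) ha₁A₁ hgb₀ hu1 rfl rfl
        · have hm' : 2 * (A₁ * B₁).card - A₁.card - B₁.card = n₁ := by omega
          exact ih₂ A₁.card (by omega) A₁ B₁ a₁ (g⁻¹ * b₀) ha₁A₁ hgb₀ hu1 hm' rfl
      omega
    · have hm : 2 * (A₂ * B₂).card - A₂.card - B₂.card < n₁ := by omega
      have key := ih₁ _ hm A₂.card A₂ B₂ a₀ b₀ ha₀A₂ hb₀B₂ hu2 rfl rfl
      omega

/-- **Kemperman's theorem**: if `a₀ b₀` has a unique representation in `A * B` then
`|A| + |B| ≤ |A * B| + 1`. -/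
theorem kemperman (A B : Finset G) (a₀ b₀ : G) (ha₀ : a₀ ∈ A) (hb₀ : b₀ ∈ B)
    (huniq : ∀ a ∈ A, ∀ b ∈ B, a * b = a₀ * b₀ → a = a₀ ∧ b = b₀) :
    A.card + B.card ≤ (A * B).card + 1 :=
  kemperman_aux _ _ A B a₀ b₀ ha₀ hb₀ huniq rfl rfl

/-- If `S` contains no element together with its inverse, then `S * S` has at least `|S|`
elements outside `S`. -/
theorem card_le_card_mul_self_sdiff (S : Finset G) (hS : ∀ s ∈ S, s⁻¹ ∉ S) :
    S.card ≤ ((S * S) \ S).card := by
  have h1 : (1 : G) ∉ S := fun h => hS 1 h (by simpa using h)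
  have huniq : ∀ a ∈ insert (1 : G) S, ∀ b ∈ insert (1 : G) S,
      a * b = 1 * 1 → a = 1 ∧ b = 1 := by
    intro a ha b hb hab
    rw [mul_one] at hab
    have hb' : b = a⁻¹ := (inv_eq_of_mul_eq_one_right hab).symm
    rcases mem_insert.mp ha with rfl | ha
    · exact ⟨rfl, by simpa using hb'⟩
    · exfalso
      rcases mem_insert.mp hb with rfl | hb
      · have : a = 1 := by simpa using hab
        exact h1 (this ▸ ha)
      · exact hS a ha (hb' ▸ hb)
  have hK := kemperman (insert (1 : G) S) (insert (1 : G) S) 1 1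
    (mem_insert_self _ _) (mem_insert_self _ _) huniq
  have hsub : insert (1 : G) S * insert (1 : G) S ⊆ insert 1 (S ∪ ((S * S) \ S)) := by
    intro z hz
    obtain ⟨a, ha, b, hb, rfl⟩ := mem_mul.mp hz
    rcases mem_insert.mp ha with rfl | ha
    · rcases mem_insert.mp hb with rfl | hb
      · simp
      · simp [hb]
    · rcases mem_insert.mp hb with rfl | hb
      · simp [ha]
      · by_cases hab : a * b ∈ S
        · simp [hab]
        · have : a * b ∈ S * S := mul_mem_mul ha hb
          simp [this, hab]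
  have h2 := card_le_card hsub
  have h3 := card_insert_le (1 : G) (S ∪ ((S * S) \ S))
  have h4 := card_union_le S ((S * S) \ S)
  rw [card_insert_of_notMem h1] at hK
  omega

end Vale.Agent.Lib.P038
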