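import Mathlib
import Vale.Agent.Lib.P038.Kemperman

/-!
Seymour's second neighbourhood inequality at every vertex of a finite vertex-transitive oriented
graph, via Kemperman's theorem in the automorphism group.
-/

namespace Vale.Agent.Lib.P038

open Finset
open scoped Pointwise

theorem vertex_transitive_ssn {V : Type*} [Fintype V] [DecidableEq V] (D : Digraph V)
    [DecidableRel D.Adj]
    (horiented : ∀ u v, D.Adj u v → ¬ D.Adj v u)
    (htrans : ∀ u v : V, ∃ φ : Equiv.Perm V, (∀ x y, D.Adj (φ x) (φ y) ↔ D.Adj x y) ∧ φ u = v)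
    (v : V) :
    (univ.filter (fun u => D.Adj v u)).card ≤
      (univ.filter (fun w => w ≠ v ∧ ¬ D.Adj v w ∧ ∃ u, D.Adj v u ∧ D.Adj u w)).card := by
  classical
  have apply_inv : ∀ (f : Equiv.Perm V) (x : V), f (f⁻¹ x) = x :=
    fun f x => Equiv.apply_symm_apply f x
  have inv_apply : ∀ (f : Equiv.Perm V) (x : V), f⁻¹ (f x) = x :=
    fun f x => Equiv.symm_apply_apply f x
  set Aut : Finset (Equiv.Perm V) :=
    univ.filter (fun φ => ∀ x y, D.Adj (φ x) (φ y) ↔ D.Adj x y) with hAut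
  have hmemAut : ∀ φ : Equiv.Perm V, φ ∈ Aut ↔ ∀ x y, D.Adj (φ x) (φ y) ↔ D.Adj x y := by
    intro φ
    rw [hAut, mem_filter]
    exact ⟨fun h => h.2, fun h => ⟨mem_univ _, h⟩⟩
  have hone : (1 : Equiv.Perm V) ∈ Aut := by
    rw [hmemAut]
    intro x y
    exact Iff.rfl
  have hmul : ∀ φ ∈ Aut, ∀ ψ ∈ Aut, φ * ψ ∈ Aut := by
    intro φ hφ ψ hψ
    rw [hmemAut] at hφ hψ ⊢
    intro x y
    rw [Equiv.Perm.mul_apply, Equiv.Perm.mul_apply, hφ, hψ]
  set N1 : Finset V := univ.filter (fun u => D.Adj v u) with hN1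
  set N2 : Finset V :=
    univ.filter (fun w => w ≠ v ∧ ¬ D.Adj v w ∧ ∃ u, D.Adj v u ∧ D.Adj u w) with hN2
  set H : Finset (Equiv.Perm V) := Aut.filter (fun φ => φ v = v) with hH
  -- the fibre lemma
  have hfibre : ∀ X : Finset V, (Aut.filter (fun φ => φ v ∈ X)).card = H.card * X.card := by
    intro X
    have h1 : (Aut.filter (fun φ => φ v ∈ X)).card =
        ∑ w ∈ X, ((Aut.filter (fun φ => φ v ∈ X)).filter (fun φ => φ v = w)).card := by
      apply card_eq_sum_card_fiberwise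
      intro φ hφ
      exact (mem_filter.mp hφ).2
    rw [h1]
    have h2 : ∀ w ∈ X,
        ((Aut.filter (fun φ => φ v ∈ X)).filter (fun φ => φ v = w)).card = H.card := by
      intro w hw
      obtain ⟨g, hg, hgv⟩ := htrans v w
      have hgA : g ∈ Aut := (hmemAut g).mpr hg
      have himg : (Aut.filter (fun φ => φ v ∈ X)).filter (fun φ => φ v = w) =
          H.image (fun h => g * h) := by
        ext φ
        simp only [mem_filter, mem_image, hH]
        constructor
        · rintro ⟨⟨hφA, _⟩, hφv⟩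
          refine ⟨g⁻¹ * φ, ⟨?_, ?_⟩, ?_⟩
          · rw [hmemAut] at hφA hgA ⊢
            intro x y
            rw [Equiv.Perm.mul_apply, Equiv.Perm.mul_apply, ← hgA, apply_inv, apply_inv, hφA]
          · rw [Equiv.Perm.mul_apply, hφv, ← hgv, inv_apply]
          · rw [mul_inv_cancel_left]
        · rintro ⟨h, ⟨hhA, hhv⟩, rfl⟩
          have hv' : (g * h) v = w := by rw [Equiv.Perm.mul_apply, hhv, hgv]
          exact ⟨⟨hmul g hgA h hhA, by rw [hv']; exact hw⟩, hv'⟩
      rw [himg]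
      exact card_image_of_injective _ (mul_right_injective g)
    rw [sum_congr rfl h2, sum_const, smul_eq_mul, mul_comm]
  set S : Finset (Equiv.Perm V) := Aut.filter (fun φ => φ v ∈ N1) with hS
  have hmemN1 : ∀ u, u ∈ N1 ↔ D.Adj v u := by
    intro u
    rw [hN1, mem_filter]
    exact ⟨fun h => h.2, fun h => ⟨mem_univ _, h⟩⟩
  have hSanti : ∀ s ∈ S, s⁻¹ ∉ S := by
    intro s hs hs'
    rw [hS, mem_filter, hmemN1] at hs hs'
    have hsA := (hmemAut s).mp hs.1
    have h1 : D.Adj (s v) (s (s⁻¹ v)) := (hsA v (s⁻¹ v)).mpr hs'.2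
    rw [apply_inv] at h1
    exact horiented _ _ hs.2 h1
  have hK := card_le_card_mul_self_sdiff S hSanti
  have hsub : (S * S) \ S ⊆ Aut.filter (fun φ => φ v ∈ N2) := by
    intro φ hφ
    obtain ⟨hφSS, hφS⟩ := mem_sdiff.mp hφ
    obtain ⟨s, hs, t, ht, rfl⟩ := mem_mul.mp hφSS
    rw [hS, mem_filter, hmemN1] at hs ht
    have hsA := (hmemAut s).mp hs.1
    have hstA : s * t ∈ Aut := hmul s hs.1 t ht.1
    have h1 : D.Adj (s v) ((s * t) v) := by
      rw [Equiv.Perm.mul_apply]
      exact (hsA v (t v)).mpr ht.2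
    have h2 : ¬ D.Adj v ((s * t) v) := by
      intro h
      apply hφS
      rw [hS, mem_filter, hmemN1]
      exact ⟨hstA, h⟩
    rw [mem_filter]
    refine ⟨hstA, ?_⟩
    rw [hN2, mem_filter]
    refine ⟨mem_univ _, ?_, h2, s v, hs.2, h1⟩
    intro h
    rw [h] at h1
    exact horiented _ _ hs.2 h1
  have hle := card_le_card hsub
  rw [hfibre N2] at hle
  have hSc : S.card = H.card * N1.card := hfibre N1
  have hHpos : 0 < H.card := by
    apply card_pos.mpr
    refine ⟨1, ?_⟩
    rw [hH, mem_filter]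
    exact ⟨hone, rfl⟩
  have hfin : H.card * N1.card ≤ H.card * N2.card := by
    rw [← hSc]
    exact le_trans hK hle
  exact Nat.le_of_mul_le_mul_left hfin hHpos

end Vale.Agent.Lib.P038
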