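import Mathlib
import Vale.Agent.Lib.P038.VertexTransitive

/-!
Compositions over vertex-transitive oriented graphs: if `D` is obtained from a vertex-transitive
oriented graph `C` by substituting digraphs `D_i` for its vertices, and every `D_i` has a vertex
whose second out-neighbourhood is at least as large as its first, then so has `D`.
-/

namespace Vale.Agent.Lib.P038

open Finset

theorem card_filter_irrel {α : Type*} [Fintype α] (P : α → Prop) (i1 i2 : DecidablePred P) :
    (@Finset.filter α P i1 univ).card = (@Finset.filter α P i2 univ).card := by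
  have : i1 = i2 := Subsingleton.elim _ _
  subst this
  rfl

/-- The second neighbourhood inequality for in-neighbourhoods in a vertex-transitive oriented
graph (apply the out-version to the reversed digraph). -/
theorem vertex_transitive_in {I : Type*} [Fintype I] [DecidableEq I] (C : Digraph I)
    [DecidableRel C.Adj]
    (hC : ∀ i j, C.Adj i j → ¬ C.Adj j i)
    (hCtrans : ∀ i j : I, ∃ φ : Equiv.Perm I, (∀ a b, C.Adj (φ a) (φ b) ↔ C.Adj a b) ∧ φ i = j)
    (j : I) :
    (univ.filter (fun i => C.Adj i j)).card ≤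
      (univ.filter (fun i => i ≠ j ∧ ¬ C.Adj i j ∧ ∃ u, C.Adj u j ∧ C.Adj i u)).card := by
  have h := @vertex_transitive_ssn I _ _ (Digraph.mk (fun a b => C.Adj b a))
    (fun a b => (inferInstance : Decidable (C.Adj b a)))
    (fun u v huv => hC v u huv)
    (fun u v => by
      obtain ⟨φ, hφ, hφu⟩ := hCtrans u v
      exact ⟨φ, fun x y => hφ y x, hφu⟩) j
  have h' : (@Finset.filter I (fun i => C.Adj i j) _ univ).card ≤
      (@Finset.filter I (fun i => i ≠ j ∧ ¬ C.Adj i j ∧ ∃ u, C.Adj u j ∧ C.Adj i u) _ univ).card :=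
    h
  exact le_trans (le_of_eq (card_filter_irrel _ _ _))
    (le_trans h' (le_of_eq (card_filter_irrel _ _ _)))

theorem composition_ssn {V I : Type*} [Fintype V] [DecidableEq V] [Fintype I] [DecidableEq I]
    [Nonempty I] (D : Digraph V) [DecidableRel D.Adj] (C : Digraph I) [DecidableRel C.Adj]
    (hC : ∀ i j, C.Adj i j → ¬ C.Adj j i)
    (hCtrans : ∀ i j : I, ∃ φ : Equiv.Perm I, (∀ a b, C.Adj (φ a) (φ b) ↔ C.Adj a b) ∧ φ i = j)
    (p : V → I) (hp : Function.Surjective p)
    (hmod : ∀ x y, p x ≠ p y → (D.Adj x y ↔ C.Adj (p x) (p y)))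
    (hfib : ∀ i : I, ∃ v : V, p v = i ∧
      (univ.filter (fun u => p u = i ∧ D.Adj v u)).card ≤
        (univ.filter (fun w => p w = i ∧ w ≠ v ∧ ¬ D.Adj v w ∧
          ∃ u, p u = i ∧ D.Adj v u ∧ D.Adj u w)).card) :
    ∃ v : V, (univ.filter (fun u => D.Adj v u)).card ≤
      (univ.filter (fun w => w ≠ v ∧ ¬ D.Adj v w ∧ ∃ u, D.Adj v u ∧ D.Adj u w)).card := by
  classical
  -- weights
  set w : I → ℕ := fun i => (univ.filter (fun x : V => p x = i)).card with hw
  have hwj : ∀ j, w j = (univ.filter (fun x : V => p x = j)).card := fun j => rfl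
  have hCirr : ∀ i, ¬ C.Adj i i := fun i h => hC i i h h
  -- double counting over the quotient
  have hsum : ∑ i : I, ∑ j ∈ univ.filter (fun j => C.Adj i j), w j ≤
      ∑ i : I, ∑ j ∈ univ.filter (fun j => j ≠ i ∧ ¬ C.Adj i j ∧ ∃ u, C.Adj i u ∧ C.Adj u j),
        w j := by
    have h1 : ∑ i : I, ∑ j ∈ univ.filter (fun j => C.Adj i j), w j =
        ∑ j : I, w j * (univ.filter (fun i => C.Adj i j)).card := by
      have : ∀ i : I, ∑ j ∈ univ.filter (fun j => C.Adj i j), w j =
          ∑ j : I, if C.Adj i j then w j else 0 := fun i => sum_filter _ _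
      rw [sum_congr rfl (fun i _ => this i), sum_comm]
      apply sum_congr rfl
      intro j _
      rw [← sum_filter, sum_const, smul_eq_mul, mul_comm]
    have h2 : ∑ i : I,
        ∑ j ∈ univ.filter (fun j => j ≠ i ∧ ¬ C.Adj i j ∧ ∃ u, C.Adj i u ∧ C.Adj u j), w j =
        ∑ j : I, w j *
          (univ.filter (fun i => i ≠ j ∧ ¬ C.Adj i j ∧ ∃ u, C.Adj u j ∧ C.Adj i u)).card := by
      have : ∀ i : I,
          ∑ j ∈ univ.filter (fun j => j ≠ i ∧ ¬ C.Adj i j ∧ ∃ u, C.Adj i u ∧ C.Adj u j), w j =
          ∑ j : I, if (j ≠ i ∧ ¬ C.Adj i j ∧ ∃ u, C.Adj i u ∧ C.Adj u j) then w j else 0 :=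
        fun i => sum_filter _ _
      rw [sum_congr rfl (fun i _ => this i), sum_comm]
      apply sum_congr rfl
      intro j _
      rw [← sum_filter, sum_const, smul_eq_mul, mul_comm]
      congr 2
      ext i
      simp only [mem_filter, mem_univ, true_and]
      constructor
      · rintro ⟨h1, h2, u, h3, h4⟩
        exact ⟨fun h => h1 h.symm, h2, u, h4, h3⟩
      · rintro ⟨h1, h2, u, h3, h4⟩
        exact ⟨fun h => h1 h.symm, h2, u, h4, h3⟩
    rw [h1, h2]
    apply sum_le_sum
    intro j _
    exact Nat.mul_le_mul_left _ (vertex_transitive_in C hC hCtrans j)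
  obtain ⟨i, -, hi⟩ := exists_le_of_sum_le (s := (univ : Finset I)) univ_nonempty hsum
  obtain ⟨v, hpv, hv⟩ := hfib i
  refine ⟨v, ?_⟩
  -- the out-neighbourhood of `v`
  have hN1 : (univ.filter (fun u => D.Adj v u)).card =
      (univ.filter (fun u => p u = i ∧ D.Adj v u)).card +
        ∑ j ∈ univ.filter (fun j => C.Adj i j), w j := by
    have hsplit : univ.filter (fun u => D.Adj v u) =
        univ.filter (fun u => p u = i ∧ D.Adj v u) ∪
          univ.filter (fun u => C.Adj i (p u)) := by
      ext u
      simp only [mem_filter, mem_univ, true_and, mem_union]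
      by_cases hu : p u = i
      · constructor
        · intro h
          exact Or.inl ⟨hu, h⟩
        · rintro (h | h)
          · exact h.2
          · rw [hu] at h
            exact absurd h (hCirr i)
      · have hne : p v ≠ p u := by rw [hpv]; exact fun h => hu h.symm
        have := hmod v u hne
        rw [hpv] at this
        constructor
        · intro h
          exact Or.inr (this.mp h)
        · rintro (h | h)
          · exact absurd h.1 hu
          · exact this.mpr h
    have hdisj : Disjoint (univ.filter (fun u => p u = i ∧ D.Adj v u))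
        (univ.filter (fun u => C.Adj i (p u))) := by
      rw [disjoint_left]
      intro u hu1 hu2
      simp only [mem_filter, mem_univ, true_and] at hu1 hu2
      rw [hu1.1] at hu2
      exact hCirr i hu2
    rw [hsplit, card_union_of_disjoint hdisj]
    congr 1
    rw [card_eq_sum_card_fiberwise (f := p) (t := univ.filter (fun j => C.Adj i j))]
    · apply sum_congr rfl
      intro j hj
      simp only [mem_filter, mem_univ, true_and] at hj
      rw [hwj j]
      apply congrArg
      ext u
      simp only [mem_filter, mem_univ, true_and]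
      constructor
      · rintro ⟨_, h⟩
        exact h
      · intro h
        exact ⟨by rw [h]; exact hj, h⟩
    · intro u hu
      have hu' := mem_filter.mp hu
      exact mem_filter.mpr ⟨mem_univ _, hu'.2⟩
  -- the second out-neighbourhood of `v`
  have hN2 : (univ.filter (fun x => p x = i ∧ x ≠ v ∧ ¬ D.Adj v x ∧
        ∃ u, p u = i ∧ D.Adj v u ∧ D.Adj u x)).card +
        ∑ j ∈ univ.filter (fun j => j ≠ i ∧ ¬ C.Adj i j ∧ ∃ u, C.Adj i u ∧ C.Adj u j), w j ≤
      (univ.filter (fun x => x ≠ v ∧ ¬ D.Adj v x ∧ ∃ u, D.Adj v u ∧ D.Adj u x)).card := by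
    have hcard : ∑ j ∈ univ.filter (fun j => j ≠ i ∧ ¬ C.Adj i j ∧ ∃ u, C.Adj i u ∧ C.Adj u j),
        w j = (univ.filter (fun x : V => p x ≠ i ∧ ¬ C.Adj i (p x) ∧
          ∃ u, C.Adj i u ∧ C.Adj u (p x))).card := by
      rw [card_eq_sum_card_fiberwise (f := p)
        (t := univ.filter (fun j => j ≠ i ∧ ¬ C.Adj i j ∧ ∃ u, C.Adj i u ∧ C.Adj u j))]
      · apply sum_congr rfl
        intro j hj
        simp only [mem_filter, mem_univ, true_and] at hj
        rw [hwj j]
        apply congrArg
        ext u
        simp only [mem_filter, mem_univ, true_and]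
        constructor
        · intro h
          exact ⟨by rw [h]; exact hj, h⟩
        · rintro ⟨_, h⟩
          exact h
      · intro u hu
        have hu' := mem_filter.mp hu
        exact mem_filter.mpr ⟨mem_univ _, hu'.2⟩
    rw [hcard]
    have hdisj : Disjoint (univ.filter (fun x => p x = i ∧ x ≠ v ∧ ¬ D.Adj v x ∧
        ∃ u, p u = i ∧ D.Adj v u ∧ D.Adj u x))
        (univ.filter (fun x : V => p x ≠ i ∧ ¬ C.Adj i (p x) ∧
          ∃ u, C.Adj i u ∧ C.Adj u (p x))) := by
      rw [disjoint_left]
      intro x hx1 hx2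
      simp only [mem_filter, mem_univ, true_and] at hx1 hx2
      exact hx2.1 hx1.1
    rw [← card_union_of_disjoint hdisj]
    apply card_le_card
    intro x hx
    simp only [mem_filter, mem_univ, true_and, mem_union] at hx ⊢
    rcases hx with ⟨_, h2, h3, u, _, h5, h6⟩ | ⟨h1, h2, k, h3, h4⟩
    · exact ⟨h2, h3, u, h5, h6⟩
    · have hne : p v ≠ p x := by rw [hpv]; exact fun h => h1 h.symm
      have hvx := hmod v x hne
      rw [hpv] at hvx
      refine ⟨?_, fun h => h2 (hvx.mp h), ?_⟩
      · rintro rfl
        exact h1 hpv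
      · obtain ⟨u, hu⟩ := hp k
        have hik : i ≠ k := fun h => hCirr i (by rw [← h] at h3; exact h3)
        have hkx : k ≠ p x := fun h => hCirr k (by rw [← h] at h4; exact h4)
        have hvu := hmod v u (by rw [hpv, hu]; exact hik)
        rw [hpv, hu] at hvu
        have hux := hmod u x (by rw [hu]; exact hkx)
        rw [hu] at hux
        exact ⟨u, hvu.mpr h3, hux.mpr h4⟩
  rw [hN1]
  exact le_trans (Nat.add_le_add hv hi) hN2

end Vale.Agent.Lib.P038
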